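import Vale.Agent.P329.T.R7

namespace Vale.Agent.P329

variable {A : Type}

/-- The syntactic congruence of a language, on the free monoid. -/
def conOf (L : Language A) : Con (FreeMonoid A) where
  r := fun u v => SynEq L (FreeMonoid.toList u) (FreeMonoid.toList v)
  iseqv := ⟨fun _ _ _ => Iff.rfl, fun h x y => (h x y).symm,
    fun h h' x y => (h x y).trans (h' x y)⟩
  mul' := by
    intro u v u' v' h h' x y
    have e1 := h x (FreeMonoid.toList u' ++ y)
    have e2 := h' (x ++ FreeMonoid.toList v) y
    simp only [FreeMonoid.toList_mul, List.append_assoc] at e1 e2 ⊢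
    exact e1.trans e2

/-- The intersection of the syntactic congruences of the stars of the list. -/
def conAll (Ks : List (GRegex A)) : Con (FreeMonoid A) where
  r := fun u v => SynAll Ks (FreeMonoid.toList u) (FreeMonoid.toList v)
  iseqv := ⟨fun _ _ _ _ _ => Iff.rfl, fun h K hK x y => (h K hK x y).symm,
    fun h h' K hK x y => (h K hK x y).trans (h' K hK x y)⟩
  mul' := by
    intro u v u' v' h h' K hK
    exact (conOf (KStar.kstar K.lang)).mul (h K hK) (h' K hK)

theorem conAll_le {Ks : List (GRegex A)} {K : GRegex A} (hK : K ∈ Ks) :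
    conAll Ks ≤ conOf (KStar.kstar K.lang) := fun _ _ h => h K hK

end Vale.Agent.P329
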