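import Vale.Agent.P329.S.C1

namespace Vale.Agent.P329

variable {A : Type}

/-- C2. The quotient is finite: with `f` from `exists_sig`, choose for every class a
representative (`Quotient.out` or `Con.induction_on`); the map class ↦ `f` (representative) is
injective (`Finite.of_injective`, `Con.eq`). -/
theorem finite_conAll (Ks : List (GRegex A)) (h : ∀ K ∈ Ks, K.sh = 0) :
    Finite (conAll Ks).Quotient := by
  obtain ⟨X, hX, f, -, hf⟩ := exists_sig Ks h
  have hsurj : ∀ q : (conAll Ks).Quotient, ∃ u : FreeMonoid A, (u : (conAll Ks).Quotient) = q :=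
    fun q => Con.induction_on q (fun u => ⟨u, rfl⟩)
  choose rp hrp using hsurj
  refine Finite.of_injective (fun q : (conAll Ks).Quotient => f (FreeMonoid.toList (rp q))) ?_
  intro q q' hq
  have h1 : SynAll Ks (FreeMonoid.toList (rp q)) (FreeMonoid.toList (rp q')) := hf _ _ hq
  have h2 : ((rp q : FreeMonoid A) : (conAll Ks).Quotient) = (rp q' : FreeMonoid A) :=
    (Con.eq (conAll Ks)).2 h1
  rw [hrp, hrp] at h2
  exact h2

end Vale.Agent.P329
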