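import Vale.Agent.P329.S.C1

namespace Vale.Agent.P329

variable {A : Type}

/-- C3. The value morphism factors through `conAll` (`exists_sig`, `value_eq_of_synAll`,
`FreeMonoid.lift_apply`). -/
theorem conAll_le_ker {G : Type} [Group G] (φ : A → G) (Ks : List (GRegex A))
    (h0 : ∀ K ∈ Ks, K.sh = 0)
    (hK : ∀ u : List A, SynAll Ks u (u ++ u) → (u.map φ).prod = 1) :
    conAll Ks ≤ Con.ker (FreeMonoid.lift φ) := by
  obtain ⟨X, hX, f, -, hf⟩ := exists_sig Ks h0
  intro u v huv
  have h1 : SynAll Ks (FreeMonoid.toList u) (FreeMonoid.toList v) := huv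
  have h2 := value_eq_of_synAll φ f hf hK _ _ h1
  rw [Con.ker_rel, FreeMonoid.lift_apply, FreeMonoid.lift_apply]
  exact h2

end Vale.Agent.P329
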