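import Vale.Agent.P329.S.S7
import Vale.Agent.P329.S.C2
import Vale.Agent.P329.S.C3

namespace Vale.Agent.P329

variable {A : Type}

/-- C4. One star suffices for a simple group that is not commutative.  Apply `single_factor` to
`M = (conAll Ks).Quotient` (`finite_conAll`), `π = (conAll Ks).lift (FreeMonoid.lift φ) _`
(`conAll_le_ker`; surjective by `hs`) and the list
`Ks.attach.map fun K => Con.ker ((conAll Ks).map (conOf (KStar.kstar K.1.lang)) (conAll_le K.2))`.
Joint injectivity: `Con.induction_on₂`, `Con.eq`.  For the `K` obtained: if `u` and `u ++ u` have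
the same contexts in the star of `K`, the classes of `u` and `u * u` are related, so
`g = g * g` for the value `g` of `u`. -/
theorem single_star {G : Type} [Group G] [Finite G] [IsSimpleGroup G]
    (hna : ∃ g h : G, g * h ≠ h * g) (φ : A → G)
    (hs : ∀ g : G, ∃ w : List A, (w.map φ).prod = g)
    (h : ∃ Ks : List (GRegex A), (∀ K ∈ Ks, K.sh = 0) ∧
      ∀ u : List A, SynAll Ks u (u ++ u) → (u.map φ).prod = 1) :
    ∃ K : GRegex A, K.sh = 0 ∧
      ∀ u : List A, SynEq (KStar.kstar K.lang) u (u ++ u) → (u.map φ).prod = 1 := by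
  obtain ⟨Ks, h0, hK⟩ := h
  haveI : Finite (conAll Ks).Quotient := finite_conAll Ks h0
  have hle : conAll Ks ≤ Con.ker (FreeMonoid.lift φ) := conAll_le_ker φ Ks h0 hK
  have hval : ∀ w : List A, (conAll Ks).lift (FreeMonoid.lift φ) hle
      ((FreeMonoid.ofList w : FreeMonoid A) : (conAll Ks).Quotient) = (w.map φ).prod := by
    intro w
    rw [Con.lift_coe, FreeMonoid.lift_apply, FreeMonoid.toList_ofList]
  have hsurj : Function.Surjective ((conAll Ks).lift (FreeMonoid.lift φ) hle) := by
    intro g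
    obtain ⟨w, hw⟩ := hs g
    exact ⟨((FreeMonoid.ofList w : FreeMonoid A) : (conAll Ks).Quotient), by rw [hval, hw]⟩
  have hL : ∀ x y : (conAll Ks).Quotient,
      (∀ c ∈ Ks.attach.map (fun K => Con.ker ((conAll Ks).map (conOf (KStar.kstar K.1.lang))
        (conAll_le K.2))), c x y) → x = y := by
    intro x y
    refine Con.induction_on₂ x y ?_
    intro u v huv
    refine (Con.eq _).2 ?_
    intro K hKm
    have h1 := huv (Con.ker ((conAll Ks).map (conOf (KStar.kstar K.lang)) (conAll_le hKm)))
      (List.mem_map.2 ⟨⟨K, hKm⟩, List.mem_attach _ _, rfl⟩)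
    have h2 : ((u : FreeMonoid A) : (conOf (KStar.kstar K.lang)).Quotient) = (v : FreeMonoid A) := h1
    exact (Con.eq _).1 h2
  obtain ⟨c, hc, hfac⟩ := single_factor hna ((conAll Ks).lift (FreeMonoid.lift φ) hle) hsurj _ hL
  obtain ⟨⟨K, hKm⟩, -, rfl⟩ := List.mem_map.1 hc
  refine ⟨K, h0 K hKm, fun u hu => ?_⟩
  have hrel : (conOf (KStar.kstar K.lang)) (FreeMonoid.ofList u)
      (FreeMonoid.ofList u * FreeMonoid.ofList u) := by
    intro x y
    have := hu x y
    simpa [FreeMonoid.toList_mul, FreeMonoid.toList_ofList] using this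
  have h3 := hfac ((FreeMonoid.ofList u : FreeMonoid A) : (conAll Ks).Quotient)
    ((FreeMonoid.ofList u * FreeMonoid.ofList u : FreeMonoid A) : (conAll Ks).Quotient)
    ((Con.eq _).2 hrel)
  rw [Con.coe_mul, map_mul, hval] at h3
  exact (mul_eq_left.mp h3.symm)

end Vale.Agent.P329
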