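import Mathlib

namespace Vale.Agent.P329

variable {M : Type} [Monoid M]

/-- S1. Pigeonhole on the powers of `a` (`Finite.exists_ne_map_eq_of_infinite`): `a ^ i = a ^ j`,
`i < j`; with `p = j - i`, `a ^ m = a ^ (m + t * p)` for `m ≥ i`; take `k = (i + 1) * p`. -/
theorem exists_idem_pow_monoid [Finite M] (a : M) : ∃ k : ℕ, 0 < k ∧ a ^ k * a ^ k = a ^ k := by
  obtain ⟨i, j, hne, hij⟩ := Finite.exists_ne_map_eq_of_infinite (fun n : ℕ => a ^ n)
  replace hij : a ^ i = a ^ j := hij
  wlog hlt : i < j generalizing i j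
  · exact this j i (Ne.symm hne) hij.symm (by omega)
  obtain ⟨p, rfl⟩ : ∃ p, j = i + p := ⟨j - i, by omega⟩
  have hp : 0 < p := by omega
  have h1 : ∀ m, i ≤ m → a ^ m = a ^ (m + p) := by
    intro m hm
    obtain ⟨s, rfl⟩ : ∃ s, m = i + s := ⟨m - i, by omega⟩
    calc a ^ (i + s) = a ^ i * a ^ s := pow_add _ _ _
      _ = a ^ (i + p) * a ^ s := by rw [hij]
      _ = a ^ (i + s + p) := by rw [← pow_add]; congr 1; omega
  have h2 : ∀ t m, i ≤ m → a ^ m = a ^ (m + t * p) := by
    intro t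
    induction t with
    | zero => intro m _; simp
    | succ t ih =>
      intro m hm
      rw [ih m hm, h1 (m + t * p) (by omega)]
      congr 1
      ring
  refine ⟨(i + 1) * p, by positivity, ?_⟩
  rw [← pow_add]
  have hle : i ≤ (i + 1) * p := by nlinarith
  exact (h2 (i + 1) ((i + 1) * p) hle).symm

end Vale.Agent.P329
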