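import Vale.Agent.P329.S.S1

namespace Vale.Agent.P329

variable {M : Type} [Monoid M]

/-- S2. An idempotent `e` such that `e M e` is a group.  Among the idempotents (`1` is one) choose
`e` with `Set.ncard {x | ∃ y, x = e * y * e}` minimal.  Given `a`, put `c = e * a * e`, take
`k > 0` with `f = c ^ k` idempotent (S1).  Then `e * f = f = f * e`, so
`{f * y * f} ⊆ {e * y * e}`, hence equality by minimality (`Set.eq_of_subset_of_ncard_le`), so
`e = f * y * f`, so `f * e = e`; but `f * e = f`.  So `c ^ k = e`; take `b = c ^ (k - 1)`. -/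
theorem exists_group_idem [Finite M] :
    ∃ e : M, e * e = e ∧ ∀ a : M, ∃ b : M, (e * a * e) * (e * b * e) = e := by
  classical
  obtain ⟨e, he, hmin⟩ := Set.exists_min_image {e : M | e * e = e}
    (fun e => Set.ncard {x : M | ∃ y, x = e * y * e}) (Set.toFinite _) ⟨1, by simp⟩
  have he' : e * e = e := he
  refine ⟨e, he', fun a => ?_⟩
  obtain ⟨k, hk, hf⟩ := exists_idem_pow_monoid (e * a * e)
  generalize hc : e * a * e = c at hf ⊢
  have hec : e * c = c := by rw [← hc, ← mul_assoc, ← mul_assoc, he']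
  have hce : c * e = c := by rw [← hc, mul_assoc, he']
  obtain ⟨j, rfl⟩ : ∃ j, k = j + 1 := ⟨k - 1, by omega⟩
  have hef : e * c ^ (j + 1) = c ^ (j + 1) := by rw [pow_succ', ← mul_assoc, hec]
  have hfe : c ^ (j + 1) * e = c ^ (j + 1) := by rw [pow_succ, mul_assoc, hce]
  have hsub : {x : M | ∃ y, x = c ^ (j + 1) * y * c ^ (j + 1)} ⊆ {x : M | ∃ y, x = e * y * e} := by
    rintro x ⟨y, rfl⟩
    refine ⟨c ^ (j + 1) * y * c ^ (j + 1), ?_⟩
    calc c ^ (j + 1) * y * c ^ (j + 1)
        = (e * c ^ (j + 1)) * y * (c ^ (j + 1) * e) := by rw [hef, hfe]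
      _ = e * (c ^ (j + 1) * y * c ^ (j + 1)) * e := by simp only [mul_assoc]
  have heq := Set.eq_of_subset_of_ncard_le hsub (hmin _ hf) (Set.toFinite _)
  have hmem : e ∈ {x : M | ∃ y, x = c ^ (j + 1) * y * c ^ (j + 1)} := by
    rw [heq]; exact ⟨e, by rw [he', he']⟩
  obtain ⟨y, hy⟩ := hmem
  have h1 : c ^ (j + 1) * e = e := by
    calc c ^ (j + 1) * e = c ^ (j + 1) * (c ^ (j + 1) * y * c ^ (j + 1)) := by rw [← hy]
      _ = (c ^ (j + 1) * c ^ (j + 1)) * y * c ^ (j + 1) := by simp only [mul_assoc]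
      _ = e := by rw [hf, ← hy]
  have h2 : c ^ (j + 1) = e := by rw [← hfe, h1]
  refine ⟨c ^ j, ?_⟩
  calc c * (e * c ^ j * e) = (c * e) * c ^ j * e := by simp only [mul_assoc]
    _ = c ^ (j + 1) * e := by rw [hce, pow_succ']
    _ = e := h1

end Vale.Agent.P329
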