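import Vale.Agent.P329.S.S3d

namespace Vale.Agent.P329

variable {M G : Type} [Monoid M] [Group G]

/-- S3a. `x = 1`. -/
theorem nset_one (π : M →* G) {e : M} (he : e * e = e) (c : Con M) : (1 : G) ∈ nset π e c := by
  refine ⟨1, map_one π, ?_⟩
  rw [mul_one, he]
  exact c.refl e

/-- S3b. For `x, y` take `x * e * y`: `e (x e y) e = (e x e)(e y e)` (use `he`), congruent to
`e * e = e` (`c.mul`). -/
theorem nset_mul (π : M →* G) {e : M} (he : e * e = e) (c : Con M) {g h : G}
    (hg : g ∈ nset π e c) (hh : h ∈ nset π e c) : g * h ∈ nset π e c := by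
  obtain ⟨x, hx, hcx⟩ := hg
  obtain ⟨y, hy, hcy⟩ := hh
  refine ⟨x * e * y, ?_, ?_⟩
  · rw [map_mul, map_mul, pi_idem π he, mul_one, hx, hy]
  · have h1 : e * (x * e * y) * e = (e * x * e) * (e * y * e) := by
      calc e * (x * e * y) * e = e * x * e * y * e := by simp only [mul_assoc]
        _ = e * x * (e * e) * y * e := by rw [he]
        _ = (e * x * e) * (e * y * e) := by simp only [mul_assoc]
    rw [h1]
    have h2 := c.mul hcx hcy
    rwa [he] at h2

/-- S3c. For `x` take `b` with `(e x e)(e b e) = e`.  Then `π b = (π x)⁻¹` (`pi_idem`), and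
`e b e = e (e b e)` is congruent to `(e x e)(e b e) = e`. -/
theorem nset_inv (π : M →* G) {e : M} (he : e * e = e)
    (hinv : ∀ a : M, ∃ b : M, (e * a * e) * (e * b * e) = e) (c : Con M) {g : G}
    (hg : g ∈ nset π e c) : g⁻¹ ∈ nset π e c := by
  obtain ⟨x, hx, hcx⟩ := hg
  obtain ⟨b, hb⟩ := hinv x
  refine ⟨b, ?_, ?_⟩
  · have h1 := congrArg π hb
    simp only [map_mul, pi_idem π he, mul_one, one_mul] at h1
    rw [← hx]
    exact eq_inv_of_mul_eq_one_right h1
  · have h1 : e * (e * b * e) = e * b * e := by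
      calc e * (e * b * e) = (e * e) * b * e := by simp only [mul_assoc]
        _ = e * b * e := by rw [he]
    have h2 := c.mul hcx (c.refl (e * b * e))
    rw [hb, h1] at h2
    exact c.symm h2

/-- S3d. For `k = π y`, `(e y e)(e b e) = e`, take `y * e * x * e * b`: its `e . e` is
`(e y e)(e x e)(e b e)`, congruent to `(e y e) e (e b e) = e`. -/
theorem nset_conj (π : M →* G) (hs : Function.Surjective π) {e : M} (he : e * e = e)
    (hinv : ∀ a : M, ∃ b : M, (e * a * e) * (e * b * e) = e) (c : Con M) {g : G}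
    (hg : g ∈ nset π e c) (k : G) : k * g * k⁻¹ ∈ nset π e c := by
  obtain ⟨x, hx, hcx⟩ := hg
  obtain ⟨y, hy⟩ := hs k
  obtain ⟨b, hb⟩ := hinv y
  have hpb : π b = k⁻¹ := by
    have h1 := congrArg π hb
    simp only [map_mul, pi_idem π he, mul_one, one_mul] at h1
    rw [← hy]
    exact eq_inv_of_mul_eq_one_right h1
  refine ⟨y * e * x * e * b, ?_, ?_⟩
  · simp only [map_mul, pi_idem π he, mul_one, hx, hy, hpb]
  · have h1 : e * (y * e * x * e * b) * e = (e * y * e) * (e * x * e) * (e * b * e) := by
      calc e * (y * e * x * e * b) * e = e * y * e * x * e * b * e := by simp only [mul_assoc]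
        _ = e * y * (e * e) * x * (e * e) * b * e := by rw [he]
        _ = (e * y * e) * (e * x * e) * (e * b * e) := by simp only [mul_assoc]
    rw [h1]
    have h2 := c.mul (c.mul (c.refl (e * y * e)) hcx) (c.refl (e * b * e))
    have h3 : e * y * e * e * (e * b * e) = e := by
      calc e * y * e * e * (e * b * e) = e * y * (e * e) * (e * b * e) := by simp only [mul_assoc]
        _ = e := by rw [he, hb]
    rwa [h3] at h2

end Vale.Agent.P329
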