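import Mathlib

namespace Vale.Agent.P329

variable {M G : Type} [Monoid M] [Group G]

/-- The values of the elements `x` with `e x e` congruent to `e`. -/
def nset (π : M →* G) (e : M) (c : Con M) : Set G := {g | ∃ x, π x = g ∧ c (e * x * e) e}

theorem pi_idem (π : M →* G) {e : M} (he : e * e = e) : π e = 1 := by
  have h : π e * π e = π e := by rw [← map_mul, he]
  exact mul_eq_right.mp h

end Vale.Agent.P329
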