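import Vale.Agent.P329.S.S3

namespace Vale.Agent.P329

variable {M G : Type} [Monoid M] [Group G]

/-- The normal subgroup with carrier `nset`. -/
def nsub (π : M →* G) (e : M) (he : e * e = e)
    (hinv : ∀ a : M, ∃ b : M, (e * a * e) * (e * b * e) = e) (c : Con M) : Subgroup G where
  carrier := nset π e c
  mul_mem' := fun hg hh => nset_mul π he c hg hh
  one_mem' := nset_one π he c
  inv_mem' := fun hg => nset_inv π he hinv c hg

theorem nsub_normal (π : M →* G) (hs : Function.Surjective π) (e : M) (he : e * e = e)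
    (hinv : ∀ a : M, ∃ b : M, (e * a * e) * (e * b * e) = e) (c : Con M) :
    (nsub π e he hinv c).Normal :=
  ⟨fun _ hg k => nset_conj π hs he hinv c hg k⟩

/-- S4. Commutators.  For `g = π x` with `c (e x e) e` and `h = π y` with `d (e y e) e`, take
right inverses `(e x e)(e b e) = e`, `(e y e)(e b' e) = e` and
`z = x * e * y * e * b * e * b'`.  Modulo `c`: `e x e` and `e b e` are congruent to `e`
(see `nset_inv`), so `e z e` is congruent to `(e y e)(e b' e) = e`; modulo `d` likewise.
`Con.inf_iff_and`. -/
theorem nset_commutator (π : M →* G) {e : M} (he : e * e = e)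
    (hinv : ∀ a : M, ∃ b : M, (e * a * e) * (e * b * e) = e) (c d : Con M) {g h : G}
    (hg : g ∈ nset π e c) (hh : h ∈ nset π e d) : g * h * g⁻¹ * h⁻¹ ∈ nset π e (c ⊓ d) := by
  obtain ⟨x, rfl, hx⟩ := hg
  obtain ⟨y, rfl, hy⟩ := hh
  obtain ⟨b, hb⟩ := hinv x
  obtain ⟨b', hb'⟩ := hinv y
  have hpe : π e = 1 := pi_idem π he
  have hl : ∀ a : M, e * (e * a * e) = e * a * e := fun a => by
    rw [← mul_assoc, ← mul_assoc, he]
  have hr : ∀ a : M, (e * a * e) * e = e * a * e := fun a => by rw [mul_assoc, he]
  have he' : ∀ a : M, e * (e * a) = e * a := fun a => by rw [← mul_assoc, he]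
  have hz : e * (x * e * y * e * b * e * b') * e =
      (e * x * e) * (e * y * e) * (e * b * e) * (e * b' * e) := by
    simp only [mul_assoc, he']
  have hpb : π b = (π x)⁻¹ := by
    have h1 := congrArg π hb
    simp only [map_mul, hpe, one_mul, mul_one] at h1
    exact eq_inv_of_mul_eq_one_right h1
  have hpb' : π b' = (π y)⁻¹ := by
    have h1 := congrArg π hb'
    simp only [map_mul, hpe, one_mul, mul_one] at h1
    exact eq_inv_of_mul_eq_one_right h1
  refine ⟨x * e * y * e * b * e * b', ?_, ?_⟩
  · simp only [map_mul, hpe, mul_one, hpb, hpb']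
  · rw [hz, Con.inf_iff_and]
    constructor
    · have hcB : c (e * b * e) e := by
        have h1 : c (e * (e * b * e)) ((e * x * e) * (e * b * e)) :=
          c.mul (c.symm hx) (c.refl _)
        rwa [hl, hb] at h1
      have h2 : c ((e * x * e) * (e * y * e) * (e * b * e) * (e * b' * e))
          (e * (e * y * e) * e * (e * b' * e)) :=
        c.mul (c.mul (c.mul hx (c.refl _)) hcB) (c.refl _)
      rwa [hl, hr, hb'] at h2
    · have hdB : d (e * b' * e) e := by
        have h1 : d (e * (e * b' * e)) ((e * y * e) * (e * b' * e)) :=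
          d.mul (d.symm hy) (d.refl _)
        rwa [hl, hb'] at h1
      have h2 : d ((e * x * e) * (e * y * e) * (e * b * e) * (e * b' * e))
          ((e * x * e) * e * (e * b * e) * e) :=
        d.mul (d.mul (d.mul (d.refl _) hy) (d.refl _)) hdB
      rwa [hr, hb, he] at h2

end Vale.Agent.P329
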