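import Vale.Agent.P329.S.S4

namespace Vale.Agent.P329

variable {M G : Type} [Monoid M] [Group G]

open scoped commutatorElement

/-- S5a. A simple group that is not commutative is perfect (`commutator G` is normal and not
`⊥`). -/
theorem commutator_eq_top_of_simple [IsSimpleGroup G] (hna : ∃ g h : G, g * h ≠ h * g) :
    commutator G = ⊤ := by
  rcases (inferInstance : (commutator G).Normal).eq_bot_or_eq_top with h | h
  · exfalso
    obtain ⟨g, k, hgk⟩ := hna
    apply hgk
    have hmem : ⁅g, k⁆ ∈ commutator G := by
      rw [commutator_def]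
      exact Subgroup.commutator_mem_commutator (Subgroup.mem_top g) (Subgroup.mem_top k)
    rw [h, Subgroup.mem_bot, commutatorElement_eq_one_iff_mul_comm] at hmem
    exact hmem
  · exact h

/-- S5b. `commutator G = ⁅⊤, ⊤⁆` is generated by the commutators (`Subgroup.commutator_le`,
`commutatorElement_def`), all of which lie in `nsub (c ⊓ d)` by `nset_commutator`. -/
theorem nsub_inf_top (π : M →* G) (e : M) (he : e * e = e)
    (hinv : ∀ a : M, ∃ b : M, (e * a * e) * (e * b * e) = e) (hperf : commutator G = ⊤)
    (c d : Con M) (hc : nsub π e he hinv c = ⊤) (hd : nsub π e he hinv d = ⊤) :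
    nsub π e he hinv (c ⊓ d) = ⊤ := by
  rw [eq_top_iff, ← hperf, commutator_def, Subgroup.commutator_le]
  intro g _ h _
  have hg : g ∈ nset π e c := by
    have : g ∈ nsub π e he hinv c := by rw [hc]; exact Subgroup.mem_top g
    exact this
  have hh : h ∈ nset π e d := by
    have : h ∈ nsub π e he hinv d := by rw [hd]; exact Subgroup.mem_top h
    exact this
  have := nset_commutator π he hinv c d hg hh
  rw [commutatorElement_def]
  exact this

/-- S5c. Induction on the list; `nsub ⊤ = ⊤` by surjectivity. -/
theorem nsub_foldr_top (π : M →* G) (hs : Function.Surjective π) (e : M) (he : e * e = e)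
    (hinv : ∀ a : M, ∃ b : M, (e * a * e) * (e * b * e) = e) (hperf : commutator G = ⊤)
    (L : List (Con M)) (hL : ∀ c ∈ L, nsub π e he hinv c = ⊤) :
    nsub π e he hinv (L.foldr (· ⊓ ·) ⊤) = ⊤ := by
  induction L with
  | nil =>
    rw [eq_top_iff]
    intro g _
    obtain ⟨x, hx⟩ := hs g
    exact ⟨x, hx, trivial⟩
  | cons c L ih =>
    simp only [List.foldr_cons]
    exact nsub_inf_top π e he hinv hperf c _ (hL c (List.mem_cons_self))
      (ih (fun d hd => hL d (List.mem_cons_of_mem _ hd)))

/-- S5d. -/
theorem foldr_inf_iff (L : List (Con M)) (x y : M) :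
    (L.foldr (· ⊓ ·) ⊤ : Con M) x y ↔ ∀ c ∈ L, c x y := by
  induction L with
  | nil => simp only [List.foldr_nil, List.not_mem_nil, false_imp_iff, implies_true, iff_true]; trivial
  | cons c L ih =>
    simp only [List.foldr_cons, List.mem_cons, forall_eq_or_imp]
    rw [Con.inf_iff_and, ih]

end Vale.Agent.P329
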