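import Vale.Agent.P329.S.S3

namespace Vale.Agent.P329

variable {M G : Type} [Monoid M] [Group G]

/-- S6. If `nset c` is trivial then `π` factors through `c`.  Given `c x y`, take `b` with
`(e y e)(e b e) = e`; `z = x * e * b` has `e z e = (e x e)(e b e)`, congruent to
`(e y e)(e b e) = e`, and `π z = π x * (π y)⁻¹`. -/
theorem factor_of_nset_trivial (π : M →* G) {e : M} (he : e * e = e)
    (hinv : ∀ a : M, ∃ b : M, (e * a * e) * (e * b * e) = e) (c : Con M)
    (h : ∀ g ∈ nset π e c, g = 1) (x y : M) (hxy : c x y) : π x = π y := by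
  obtain ⟨b, hb⟩ := hinv y
  have hpe := pi_idem π he
  have e1 : e * (x * e * b) * e = (e * x * e) * (e * b * e) := by
    calc e * (x * e * b) * e = e * x * e * b * e := by simp only [mul_assoc]
      _ = e * x * (e * e) * b * e := by rw [he]
      _ = (e * x * e) * (e * b * e) := by simp only [mul_assoc]
  have e2 : c ((e * x * e) * (e * b * e)) ((e * y * e) * (e * b * e)) :=
    c.mul (c.mul (c.mul (c.refl e) hxy) (c.refl e)) (c.refl _)
  have hz : π (x * e * b) ∈ nset π e c := by
    refine ⟨x * e * b, rfl, ?_⟩
    rw [e1]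
    rw [hb] at e2
    exact e2
  have h1 := h _ hz
  have h2 : π y * π b = 1 := by
    have := congrArg π hb
    simpa [map_mul, hpe] using this
  have h3 : π x * π b = 1 := by
    simpa [map_mul, hpe] using h1
  have h4 : π x * π b = π y * π b := by rw [h2, h3]
  exact mul_right_cancel h4

end Vale.Agent.P329
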