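import Vale.Agent.P329.S.S2
import Vale.Agent.P329.S.S5
import Vale.Agent.P329.S.S6

namespace Vale.Agent.P329

variable {M G : Type} [Monoid M] [Group G]

/-- S7. A morphism from a subdirect product onto a simple group that is not commutative factors
through one factor.  Take `e` from `exists_group_idem`.  Every `nsub c` is `⊥` or `⊤`
(`nsub_normal`, `IsSimpleGroup.eq_bot_or_eq_top_of_normal`).  If all are `⊤`, then by
`nsub_foldr_top` every `g` is `π x` with `e x e = e` (`foldr_inf_iff`, `hL`), so
`g = π (e x e) = π e = 1`, against nontriviality.  Otherwise use `factor_of_nset_trivial`. -/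
theorem single_factor [Finite M] [IsSimpleGroup G] (hna : ∃ g h : G, g * h ≠ h * g)
    (π : M →* G) (hs : Function.Surjective π) (L : List (Con M))
    (hL : ∀ x y, (∀ c ∈ L, c x y) → x = y) : ∃ c ∈ L, ∀ x y, c x y → π x = π y := by
  obtain ⟨e, he, hinv⟩ := exists_group_idem (M := M)
  have hperf := commutator_eq_top_of_simple (G := G) hna
  by_cases hall : ∀ c ∈ L, nsub π e he hinv c = ⊤
  · exfalso
    have htop := nsub_foldr_top π hs e he hinv hperf L hall
    have h1 : ∀ g : G, g = 1 := by
      intro g
      have hg : g ∈ nsub π e he hinv (L.foldr (· ⊓ ·) ⊤) := by rw [htop]; trivial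
      obtain ⟨x, hx, hc⟩ := hg
      rw [foldr_inf_iff] at hc
      have hexe : e * x * e = e := hL _ _ hc
      have h2 : π (e * x * e) = π e := by rw [hexe]
      rw [map_mul, map_mul, pi_idem π he, one_mul, mul_one] at h2
      rw [← hx, h2]
    obtain ⟨g, h, hgh⟩ := hna
    apply hgh
    rw [h1 g, h1 h]
  · push Not at hall
    obtain ⟨c, hcL, hc⟩ := hall
    refine ⟨c, hcL, ?_⟩
    have hn := nsub_normal π hs e he hinv c
    have hbot : nsub π e he hinv c = ⊥ :=
      (IsSimpleGroup.eq_bot_or_eq_top_of_normal _ hn).resolve_right hc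
    apply factor_of_nset_trivial π he hinv c
    intro g hg
    have hg' : g ∈ nsub π e he hinv c := hg
    rw [hbot] at hg'
    exact Subgroup.mem_bot.mp hg'

end Vale.Agent.P329
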